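import Mathlib

namespace Vale.Agent.Lib.P034.helper6

open Finset

/-- The number of embeddings `W ↪ Y` with prescribed values on the range of an injective map
`ψ : U → W` is at most the number of embeddings of the remaining points into the remaining
values. -/
theorem card_embeddings_prescribed {U W Y : Type*} [Fintype U] [Fintype W] [Fintype Y]
    (ψ : U → W) (ι : U → Y) (hψ : Function.Injective ψ) (hι : Function.Injective ι)
    [DecidablePred fun φ : W ↪ Y => ∀ a : U, φ (ψ a) = ι a] :
    (Finset.univ.filter (fun φ : W ↪ Y => ∀ a : U, φ (ψ a) = ι a)).card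
      ≤ (Fintype.card Y - Fintype.card U).descFactorial (Fintype.card W - Fintype.card U) := by
  classical
  set T : Finset W := Finset.univ.image ψ with hT
  set T' : Finset Y := Finset.univ.image ι with hT'
  have hTc : T.card = Fintype.card U := by
    rw [hT, Finset.card_image_of_injective _ hψ, Finset.card_univ]
  have hTc' : T'.card = Fintype.card U := by
    rw [hT', Finset.card_image_of_injective _ hι, Finset.card_univ]
  let R : {φ : W ↪ Y // ∀ a : U, φ (ψ a) = ι a} → ({w // w ∉ T} ↪ {y // y ∉ T'}) := fun φ =>
    ⟨fun w => ⟨φ.1 w.1, by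
        intro hmem
        obtain ⟨a, -, ha⟩ := Finset.mem_image.mp hmem
        have h1 : φ.1 (ψ a) = φ.1 w.1 := by rw [φ.2 a, ha]
        have h2 : ψ a = w.1 := φ.1.injective h1
        exact w.2 (Finset.mem_image.mpr ⟨a, Finset.mem_univ _, h2⟩)⟩,
     fun w w' h => Subtype.ext (φ.1.injective (congrArg Subtype.val h))⟩
  have hR : Function.Injective R := by
    intro φ φ' h
    apply Subtype.ext
    apply Function.Embedding.ext
    intro w
    by_cases hw : w ∈ T
    · obtain ⟨a, -, rfl⟩ := Finset.mem_image.mp hw
      rw [φ.2 a, φ'.2 a]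
    · have h3 := congrArg (fun r : ({w // w ∉ T} ↪ {y // y ∉ T'}) => (r ⟨w, hw⟩).1) h
      exact h3
  have hcard := Fintype.card_le_of_injective R hR
  rw [Fintype.card_subtype, Fintype.card_embedding_eq] at hcard
  have e1 : Fintype.card {w // w ∉ T} = Fintype.card W - Fintype.card U := by
    rw [Fintype.card_subtype_compl, Fintype.card_coe, hTc]
  have e2 : Fintype.card {y // y ∉ T'} = Fintype.card Y - Fintype.card U := by
    rw [Fintype.card_subtype_compl, Fintype.card_coe, hTc']
  rw [e1, e2] at hcard
  exact hcard

end Vale.Agent.Lib.P034.helper6
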