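import Mathlib
import Vale.Agent.Lib.P064.DegFinal
import Vale.Agent.Lib.P034.helper6.Prescribed

namespace Vale.Agent.Lib.P034.helper6

open Finset
open Vale.Agent.Lib.P064

/-- The number of embeddings `φ` of `H` into `[n]` whose edge image contains a given set `S` of
pairs, given a bound on the number of injective homomorphisms into `H`. -/
theorem count_containing (n : ℕ) {W : Type*} [Fintype W] (H : SimpleGraph W) (p : ℝ)
    (hp0 : 0 ≤ p) (hp1 : p ≤ 1)
    (hinjb : ∀ (m : ℕ) (U : Type) [Fintype U] (F : SimpleGraph U), Fintype.card U = m →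
      ((injFin F H).card : ℝ) ≤ (n.descFactorial m : ℝ) * p ^ F.edgeSet.ncard)
    (S : Finset (Sym2 (Fin n)))
    [DecidablePred fun φ : W ↪ Fin n => ∀ e ∈ S, ∃ e' ∈ H.edgeSet, Sym2.map φ e' = e] :
    ((Finset.univ.filter
        (fun φ : W ↪ Fin n => ∀ e ∈ S, ∃ e' ∈ H.edgeSet, Sym2.map φ e' = e)).card : ℝ)
      ≤ (n.descFactorial (Fintype.card W) : ℝ) * p ^ S.card := by
  classical
  set A := Finset.univ.filter
    (fun φ : W ↪ Fin n => ∀ e ∈ S, ∃ e' ∈ H.edgeSet, Sym2.map φ e' = e) with hA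
  rcases A.eq_empty_or_nonempty with hAe | ⟨φ₀, hφ₀⟩
  · rw [hAe]
    simp only [Finset.card_empty, Nat.cast_zero]
    positivity
  set V : Finset (Fin n) := Finset.univ.filter (fun v => ∃ e ∈ S, v ∈ e) with hV
  let F : SimpleGraph V := SimpleGraph.fromRel (fun a b : V => s(a.1, b.1) ∈ S)
  have hSF : S.card ≤ F.edgeSet.ncard := by
    have hsub : (S : Set (Sym2 (Fin n))) ⊆ (Sym2.map (Subtype.val : V → Fin n)) '' F.edgeSet := by
      intro e he
      obtain ⟨e', he', rfl⟩ := (Finset.mem_filter.mp hφ₀).2 e he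
      induction e' using Sym2.inductionOn with
      | hf x y =>
        have hxy : H.Adj x y := he'
        have hne : φ₀ x ≠ φ₀ y := fun h => hxy.ne (φ₀.injective h)
        have he2 : s(φ₀ x, φ₀ y) ∈ S := he
        have hx : φ₀ x ∈ V :=
          Finset.mem_filter.mpr ⟨Finset.mem_univ _, _, he2, Sym2.mem_mk_left _ _⟩
        have hy : φ₀ y ∈ V :=
          Finset.mem_filter.mpr ⟨Finset.mem_univ _, _, he2, Sym2.mem_mk_right _ _⟩
        refine ⟨s(⟨φ₀ x, hx⟩, ⟨φ₀ y, hy⟩), ?_, rfl⟩
        rw [SimpleGraph.mem_edgeSet, SimpleGraph.fromRel_adj]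
        exact ⟨fun h => hne (congrArg Subtype.val h), Or.inl he2⟩
    calc S.card = (S : Set (Sym2 (Fin n))).ncard := (Set.ncard_coe_finset S).symm
      _ ≤ ((Sym2.map (Subtype.val : V → Fin n)) '' F.edgeSet).ncard :=
          Set.ncard_le_ncard hsub (Set.toFinite _)
      _ ≤ F.edgeSet.ncard := Set.ncard_image_le (Set.toFinite _)
  have hcover : A ⊆ (injFin F H).biUnion
      (fun ψ => Finset.univ.filter (fun φ : W ↪ Fin n => ∀ a : V, φ (ψ a) = a.1)) := by
    intro φ hφ
    have hφ' := (Finset.mem_filter.mp hφ).2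
    have hrange : ∀ a : V, ∃ w, φ w = a.1 := by
      intro a
      obtain ⟨e, he, hae⟩ := (Finset.mem_filter.mp a.2).2
      obtain ⟨e', he', rfl⟩ := hφ' e he
      obtain ⟨w, -, hw⟩ := Sym2.mem_map.mp hae
      exact ⟨w, hw⟩
    choose ψ hψ using hrange
    rw [Finset.mem_biUnion]
    refine ⟨ψ, ?_, Finset.mem_filter.mpr ⟨Finset.mem_univ _, hψ⟩⟩
    rw [mem_injFin]
    constructor
    · intro a b hab
      apply Subtype.ext
      rw [← hψ a, ← hψ b, hab]
    · intro a b hab
      rw [SimpleGraph.fromRel_adj] at hab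
      obtain ⟨hne, hS⟩ := hab
      have hS' : s(a.1, b.1) ∈ S := by
        rcases hS with h | h
        · exact h
        · rw [Sym2.eq_swap]
          exact h
      obtain ⟨e', he', hmap⟩ := hφ' _ hS'
      induction e' using Sym2.inductionOn with
      | hf x y =>
        have hxy : H.Adj x y := he'
        rw [Sym2.map_mk, Sym2.eq_iff] at hmap
        rcases hmap with ⟨h1, h2⟩ | ⟨h1, h2⟩
        · have hx : x = ψ a := φ.injective (by rw [h1, hψ a])
          have hy : y = ψ b := φ.injective (by rw [h2, hψ b])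
          rw [← hx, ← hy]
          exact hxy
        · have hx : x = ψ b := φ.injective (by rw [h1, hψ b])
          have hy : y = ψ a := φ.injective (by rw [h2, hψ a])
          rw [← hx, ← hy]
          exact hxy.symm
  have hB : ∀ ψ ∈ injFin F H,
      (Finset.univ.filter (fun φ : W ↪ Fin n => ∀ a : V, φ (ψ a) = a.1)).card
        ≤ (n - V.card).descFactorial (Fintype.card W - V.card) := by
    intro ψ hψ
    have h := card_embeddings_prescribed ψ (Subtype.val : V → Fin n)
      ((mem_injFin _ _ _).mp hψ).1 Subtype.val_injective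
    rw [Fintype.card_coe, Fintype.card_fin] at h
    exact h
  have hA_le : A.card
      ≤ (injFin F H).card * (n - V.card).descFactorial (Fintype.card W - V.card) := by
    calc A.card ≤ ((injFin F H).biUnion
          (fun ψ => Finset.univ.filter (fun φ : W ↪ Fin n => ∀ a : V, φ (ψ a) = a.1))).card :=
          Finset.card_le_card hcover
      _ ≤ ∑ ψ ∈ injFin F H,
          (Finset.univ.filter (fun φ : W ↪ Fin n => ∀ a : V, φ (ψ a) = a.1)).card :=
          Finset.card_biUnion_le
      _ ≤ ∑ _ψ ∈ injFin F H, (n - V.card).descFactorial (Fintype.card W - V.card) :=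
          Finset.sum_le_sum hB
      _ = (injFin F H).card * (n - V.card).descFactorial (Fintype.card W - V.card) := by
          rw [Finset.sum_const, smul_eq_mul]
  have hVW : V.card ≤ Fintype.card W := by
    obtain ⟨ψ, hψ, -⟩ := Finset.mem_biUnion.mp (hcover hφ₀)
    have h := Fintype.card_le_of_injective ψ ((mem_injFin _ _ _).mp hψ).1
    rw [Fintype.card_coe] at h
    exact h
  have hfact : (n - V.card).descFactorial (Fintype.card W - V.card) * n.descFactorial V.card
      = n.descFactorial (Fintype.card W) := Nat.descFactorial_mul_descFactorial hVW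
  have hinj := hinjb V.card V F (Fintype.card_coe V)
  have hpow : p ^ F.edgeSet.ncard ≤ p ^ S.card := pow_le_pow_of_le_one hp0 hp1 hSF
  have hd0 : (0 : ℝ) ≤ ((n - V.card).descFactorial (Fintype.card W - V.card) : ℝ) :=
    Nat.cast_nonneg _
  have hd1 : (0 : ℝ) ≤ (n.descFactorial V.card : ℝ) := Nat.cast_nonneg _
  calc (A.card : ℝ)
      ≤ ((injFin F H).card : ℝ)
        * ((n - V.card).descFactorial (Fintype.card W - V.card) : ℝ) := by
        exact_mod_cast hA_le
    _ ≤ ((n.descFactorial V.card : ℝ) * p ^ F.edgeSet.ncard)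
        * ((n - V.card).descFactorial (Fintype.card W - V.card) : ℝ) :=
        mul_le_mul_of_nonneg_right hinj hd0
    _ ≤ ((n.descFactorial V.card : ℝ) * p ^ S.card)
        * ((n - V.card).descFactorial (Fintype.card W - V.card) : ℝ) :=
        mul_le_mul_of_nonneg_right (mul_le_mul_of_nonneg_left hpow hd1) hd0
    _ = (n.descFactorial (Fintype.card W) : ℝ) * p ^ S.card := by
        rw [← hfact]
        push_cast
        ring

/-- If some subgraph `F` of `H` with at least one edge has few copies in the complete graph, then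
the edge sets of its copies form a cheap cover of the family of edge sets containing a copy of
`H`. -/
theorem cover_of_subgraph (n : ℕ) {W : Type*} [Fintype W] (H : SimpleGraph W)
    (F : H.Subgraph) (p' : ℝ) (hp' : 0 ≤ p') (he : 1 ≤ F.coe.edgeSet.ncard)
    (hsmall : ((⊤ : SimpleGraph (Fin n)).copyCount F.coe : ℝ)
      * (2 * p') ^ F.coe.edgeSet.ncard < 1) :
    ∃ G : Finset (Finset (Sym2 (Fin n))),
      (∀ E : Finset (Sym2 (Fin n)),
        (∃ φ : W ↪ Fin n, ∀ e ∈ H.edgeSet, Sym2.map φ e ∈ E) → ∃ S ∈ G, S ⊆ E) ∧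
      ∑ S ∈ G, p' ^ S.card ≤ 1 / 2 := by
  classical
  set k := F.coe.edgeSet.ncard with hk
  let EF : Finset (Sym2 F.verts) := Finset.univ.filter (fun e => e ∈ F.coe.edgeSet)
  have hEF : EF.card = k := by
    rw [hk, ← Set.ncard_coe_finset]
    congr 1
    ext e
    simp [EF]
  let imgF : (F.verts → Fin n) → Finset (Sym2 (Fin n)) := fun ψ => EF.image (Sym2.map ψ)
  let G : Finset (Finset (Sym2 (Fin n))) :=
    (injFin F.coe (⊤ : SimpleGraph (Fin n))).image imgF
  have hcardS : ∀ S ∈ G, S.card = k := by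
    intro S hS
    obtain ⟨ψ, hψ, rfl⟩ := Finset.mem_image.mp hS
    rw [mem_injFin_top] at hψ
    rw [Finset.card_image_of_injective _ (Sym2.map.injective hψ), hEF]
  have hadj : ∀ ψ : F.verts → Fin n, Function.Injective ψ → ∀ x y : Fin n,
      s(x, y) ∈ imgF ψ ↔ (subOf F.coe (⊤ : SimpleGraph (Fin n)) ψ).Adj x y := by
    intro ψ hψ x y
    constructor
    · intro h
      obtain ⟨e, he, hxy⟩ := Finset.mem_image.mp h
      have he' : e ∈ F.coe.edgeSet := (Finset.mem_filter.mp he).2
      induction e using Sym2.inductionOn with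
      | hf a b =>
        have hab : F.coe.Adj a b := he'
        rw [Sym2.map_mk, Sym2.eq_iff] at hxy
        rcases hxy with ⟨h1, h2⟩ | ⟨h1, h2⟩
        · refine ⟨?_, a, b, hab, h1, h2⟩
          rw [SimpleGraph.top_adj, ← h1, ← h2]
          exact fun h => hab.ne (hψ h)
        · refine ⟨?_, b, a, hab.symm, h2, h1⟩
          rw [SimpleGraph.top_adj, ← h1, ← h2]
          exact fun h => hab.ne (hψ h).symm
    · rintro ⟨-, a, b, hab, rfl, rfl⟩
      exact Finset.mem_image.mpr ⟨s(a, b),
        Finset.mem_filter.mpr ⟨Finset.mem_univ _, hab⟩, rfl⟩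
  have hGcard : G.card ≤ (⊤ : SimpleGraph (Fin n)).copyCount F.coe := by
    rw [← card_topCopies]
    have hex : ∀ S ∈ G, ∃ ψ : F.verts → Fin n, Function.Injective ψ ∧ imgF ψ = S := by
      intro S hS
      obtain ⟨ψ, hψ, rfl⟩ := Finset.mem_image.mp hS
      exact ⟨ψ, (mem_injFin_top _ _ _).mp hψ, rfl⟩
    let c : Finset (Sym2 (Fin n)) → (⊤ : SimpleGraph (Fin n)).Subgraph := fun S =>
      if h : S ∈ G then subOf F.coe (⊤ : SimpleGraph (Fin n)) (Classical.choose (hex S h))
      else ⊥
    apply Finset.card_le_card_of_injOn c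
    · intro S hS
      have hS' : S ∈ G := hS
      have hc : c S = subOf F.coe (⊤ : SimpleGraph (Fin n)) (Classical.choose (hex S hS')) :=
        dif_pos hS'
      rw [Finset.mem_coe, mem_topCopies, hc]
      exact subOf_iso F.coe _ _
        ((mem_injFin_top _ _ _).mpr (Classical.choose_spec (hex S hS')).1)
    · intro S hS S' hS' hcc
      have hS1 : S ∈ G := hS
      have hS2 : S' ∈ G := hS'
      have hc1 : c S = subOf F.coe (⊤ : SimpleGraph (Fin n)) (Classical.choose (hex S hS1)) :=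
        dif_pos hS1
      have hc2 : c S' = subOf F.coe (⊤ : SimpleGraph (Fin n)) (Classical.choose (hex S' hS2)) :=
        dif_pos hS2
      rw [hc1, hc2] at hcc
      have h1 := Classical.choose_spec (hex S hS1)
      have h2 := Classical.choose_spec (hex S' hS2)
      rw [← h1.2, ← h2.2]
      ext e
      induction e using Sym2.inductionOn with
      | hf x y =>
        rw [hadj _ h1.1, hadj _ h2.1, hcc]
  refine ⟨G, ?_, ?_⟩
  · rintro E ⟨φ, hφ⟩
    have hinjψ : Function.Injective (fun a : F.verts => φ a.1) :=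
      fun a b h => Subtype.ext (φ.injective h)
    refine ⟨imgF (fun a : F.verts => φ a.1), Finset.mem_image.mpr
      ⟨_, (mem_injFin_top _ _ _).mpr hinjψ, rfl⟩, ?_⟩
    intro e he
    obtain ⟨e0, he0, rfl⟩ := Finset.mem_image.mp he
    have he0' : e0 ∈ F.coe.edgeSet := (Finset.mem_filter.mp he0).2
    induction e0 using Sym2.inductionOn with
    | hf a b =>
      have hab : F.coe.Adj a b := he0'
      have hH : H.Adj a.1 b.1 := F.adj_sub hab
      have := hφ s(a.1, b.1) hH
      rw [Sym2.map_mk] at this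
      rw [Sym2.map_mk]
      exact this
  · have hsum : ∑ S ∈ G, p' ^ S.card = (G.card : ℝ) * p' ^ k := by
      rw [Finset.sum_congr rfl (fun S hS => by rw [hcardS S hS]), Finset.sum_const,
        nsmul_eq_mul]
    rw [hsum]
    have hpk : (0 : ℝ) ≤ p' ^ k := pow_nonneg hp' k
    have h1 : (G.card : ℝ) * p' ^ k
        ≤ ((⊤ : SimpleGraph (Fin n)).copyCount F.coe : ℝ) * p' ^ k :=
      mul_le_mul_of_nonneg_right (by exact_mod_cast hGcard) hpk
    have h2 : (2 * p') ^ k = 2 ^ k * p' ^ k := mul_pow 2 p' k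
    have h3 : (2 : ℝ) ≤ 2 ^ k := by
      calc (2 : ℝ) = 2 ^ 1 := (pow_one 2).symm
        _ ≤ 2 ^ k := pow_le_pow_right₀ (by norm_num) he
    have hc0 : (0 : ℝ) ≤ ((⊤ : SimpleGraph (Fin n)).copyCount F.coe : ℝ) := Nat.cast_nonneg _
    rw [h2] at hsmall
    have h4 : 2 * (((⊤ : SimpleGraph (Fin n)).copyCount F.coe : ℝ) * p' ^ k)
        ≤ ((⊤ : SimpleGraph (Fin n)).copyCount F.coe : ℝ) * (2 ^ k * p' ^ k) := by
      have : 2 * (((⊤ : SimpleGraph (Fin n)).copyCount F.coe : ℝ) * p' ^ k)
          ≤ 2 ^ k * (((⊤ : SimpleGraph (Fin n)).copyCount F.coe : ℝ) * p' ^ k) :=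
        mul_le_mul_of_nonneg_right h3 (mul_nonneg hc0 hpk)
      linarith
    linarith

/-- Fractional covers of the family of edge sets containing a copy of a graph `H` of maximum
degree at most `D` can be rounded: a fractional cover of cost at most `1/2` at `p` gives a cover
of cost at most `1/2` at `p / (19440 * D)`. -/
theorem talagrand_subgraph_deg (n : ℕ) (hn : 2 ≤ n) {W : Type*} [Fintype W] (H : SimpleGraph W)
    [DecidableRel H.Adj] (hW : Fintype.card W ≤ n) (D : ℕ) (hD1 : 1 ≤ D)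
    (hD : ∀ x, H.degree x ≤ D)
    (g : Finset (Sym2 (Fin n)) → ℝ) (p : ℝ) (hp0 : 0 ≤ p) (hp1 : p ≤ 1)
    (hg : ∀ S, 0 ≤ g S)
    (hcov : ∀ E : Finset (Sym2 (Fin n)),
      (∃ φ : W ↪ Fin n, ∀ e ∈ H.edgeSet, Sym2.map φ e ∈ E) → 1 ≤ ∑ S ∈ E.powerset, g S)
    (hcost : ∑ S : Finset (Sym2 (Fin n)), g S * p ^ S.card ≤ 1 / 2) :
    ∃ G : Finset (Finset (Sym2 (Fin n))),
      (∀ E : Finset (Sym2 (Fin n)),
        (∃ φ : W ↪ Fin n, ∀ e ∈ H.edgeSet, Sym2.map φ e ∈ E) → ∃ S ∈ G, S ⊆ E) ∧
      ∑ S ∈ G, (p / (19440 * (D : ℝ))) ^ S.card ≤ 1 / 2 := by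
  classical
  have hDr : (1 : ℝ) ≤ (D : ℝ) := by exact_mod_cast hD1
  set p' : ℝ := p / (19440 * (D : ℝ)) with hp'
  have hp'0 : 0 ≤ p' := by positivity
  have hcardle : Fintype.card W ≤ Fintype.card (Fin n) := by
    rw [Fintype.card_fin]
    exact hW
  obtain ⟨φ₁⟩ := Function.Embedding.nonempty_of_card_le hcardle
  -- `H` has an edge
  have hedge : ∃ x y, H.Adj x y := by
    by_contra hno
    push Not at hno
    have h1 := hcov ∅ ⟨φ₁, fun e he => by
      induction e using Sym2.inductionOn with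
      | hf x y => exact absurd he (hno x y)⟩
    rw [Finset.powerset_empty, Finset.sum_singleton] at h1
    have h2 : g ∅ * p ^ (∅ : Finset (Sym2 (Fin n))).card
        ≤ ∑ S : Finset (Sym2 (Fin n)), g S * p ^ S.card :=
      Finset.single_le_sum (f := fun S : Finset (Sym2 (Fin n)) => g S * p ^ S.card)
        (fun S _ => mul_nonneg (hg S) (pow_nonneg hp0 _)) (Finset.mem_univ ∅)
    rw [Finset.card_empty, pow_zero, mul_one] at h2
    linarith
  obtain ⟨x₀, y₀, hxy₀⟩ := hedge
  by_cases hyp : ∀ F : H.Subgraph,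
      1 ≤ ((⊤ : SimpleGraph (Fin n)).copyCount F.coe : ℝ) * (2 * p') ^ F.coe.edgeSet.ncard
  · exfalso
    have htop : (⊤ : H.Subgraph).coe.edgeSet.ncard ≠ 0 := by
      intro h0
      rw [Set.ncard_eq_zero] at h0
      have hmem : s((⟨x₀, trivial⟩ : (⊤ : H.Subgraph).verts), ⟨y₀, trivial⟩)
          ∈ (⊤ : H.Subgraph).coe.edgeSet := hxy₀
      rw [h0] at hmem
      exact hmem
    have hq0 : 0 < 2 * p' := by
      rcases eq_or_lt_of_le hp'0 with h | h
      · have h1 := hyp (⊤ : H.Subgraph)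
        rw [← h, mul_zero, zero_pow htop, mul_zero] at h1
        linarith
      · linarith
    have hp'le : p' ≤ 1 / 19440 := by
      rw [hp', div_le_div_iff₀ (by positivity) (by norm_num)]
      nlinarith
    have hq12 : 2 * p' ≤ 1 / 2 := by linarith
    have hdeg : ∀ x : W, ∃ N : Finset W, N.card ≤ D ∧ ∀ y, H.Adj x y → y ∈ N := by
      intro x
      refine ⟨H.neighborFinset x, ?_, fun y hy => (H.mem_neighborFinset x y).mpr hy⟩
      rw [SimpleGraph.card_neighborFinset_eq_degree]
      exact hD x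
    obtain ⟨a, b, ha, hb, hab, h3, ha4⟩ := exists_ab n hn (2 * p') hq0 hq12
    obtain ⟨O⟩ := exists_orientation H n (2 * p') hq0 (by linarith) hyp a b hb hab
    have hbound : ∀ (m : ℕ) (U : Type) [Fintype U] (F : SimpleGraph U), Fintype.card U = m →
        ((injFin F H).card : ℝ)
          ≤ (n.descFactorial m : ℝ) * (324 * (30 * (D : ℝ)) * (2 * p')) ^ F.edgeSet.ncard :=
      deg_inj_bound H n hn hW (2 * p') hq0 (by linarith) hyp a b hb h3 O
        (30 * (D : ℝ)) D hD1 hdeg (le_refl _)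
    have hpe : 324 * (30 * (D : ℝ)) * (2 * p') = p := by
      rw [hp']
      field_simp
      ring
    rw [hpe] at hbound
    -- averaging over all embeddings
    set N : ℕ := Fintype.card (W ↪ Fin n) with hN
    have hNeq : N = n.descFactorial (Fintype.card W) := by
      rw [hN, Fintype.card_embedding_eq, Fintype.card_fin]
    have hNpos : (0 : ℝ) < (N : ℝ) := by
      have : 0 < N := Fintype.card_pos_iff.mpr ⟨φ₁⟩
      exact_mod_cast this
    let Eφ : (W ↪ Fin n) → Finset (Sym2 (Fin n)) := fun φ =>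
      (Finset.univ.filter (fun e : Sym2 W => e ∈ H.edgeSet)).image (Sym2.map φ)
    have hsubE : ∀ (φ : W ↪ Fin n) (S : Finset (Sym2 (Fin n))),
        S ⊆ Eφ φ ↔ ∀ e ∈ S, ∃ e' ∈ H.edgeSet, Sym2.map φ e' = e := by
      intro φ S
      constructor
      · intro h e he
        obtain ⟨e', he', rfl⟩ := Finset.mem_image.mp (h he)
        exact ⟨e', (Finset.mem_filter.mp he').2, rfl⟩
      · intro h e he
        obtain ⟨e', he', rfl⟩ := h e he
        exact Finset.mem_image.mpr ⟨e', Finset.mem_filter.mpr ⟨Finset.mem_univ _, he'⟩, rfl⟩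
    have h1 : ∀ φ : W ↪ Fin n,
        (1 : ℝ) ≤ ∑ S : Finset (Sym2 (Fin n)), if S ⊆ Eφ φ then g S else 0 := by
      intro φ
      have h := hcov (Eφ φ) ⟨φ, fun e he =>
        Finset.mem_image.mpr ⟨e, Finset.mem_filter.mpr ⟨Finset.mem_univ _, he⟩, rfl⟩⟩
      rw [← Finset.sum_filter]
      have hfil : Finset.univ.filter (fun S : Finset (Sym2 (Fin n)) => S ⊆ Eφ φ)
          = (Eφ φ).powerset := by
        ext S
        simp [Finset.mem_powerset]
      rw [hfil]
      exact h
    have h2 : (N : ℝ) ≤ ∑ φ : W ↪ Fin n, ∑ S : Finset (Sym2 (Fin n)),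
        if S ⊆ Eφ φ then g S else 0 := by
      calc (N : ℝ) = ∑ _φ : W ↪ Fin n, (1 : ℝ) := by
            rw [Finset.sum_const, Finset.card_univ, nsmul_eq_mul, mul_one]
        _ ≤ _ := Finset.sum_le_sum (fun φ _ => h1 φ)
    rw [Finset.sum_comm] at h2
    have h3' : ∀ S : Finset (Sym2 (Fin n)),
        ∑ φ : W ↪ Fin n, (if S ⊆ Eφ φ then g S else 0) ≤ g S * ((N : ℝ) * p ^ S.card) := by
      intro S
      rw [← Finset.sum_filter, Finset.sum_const, nsmul_eq_mul, mul_comm]
      apply mul_le_mul_of_nonneg_left _ (hg S)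
      have hc := count_containing n H p hp0 hp1 hbound S
      have hfil : Finset.univ.filter (fun φ : W ↪ Fin n => S ⊆ Eφ φ)
          = Finset.univ.filter
            (fun φ : W ↪ Fin n => ∀ e ∈ S, ∃ e' ∈ H.edgeSet, Sym2.map φ e' = e) := by
        ext φ
        simp only [Finset.mem_filter, Finset.mem_univ, true_and]
        exact hsubE φ S
      rw [hfil, hNeq]
      exact hc
    have h4 : (N : ℝ) ≤ ∑ S : Finset (Sym2 (Fin n)), g S * ((N : ℝ) * p ^ S.card) :=
      h2.trans (Finset.sum_le_sum (fun S _ => h3' S))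
    have h5 : ∑ S : Finset (Sym2 (Fin n)), g S * ((N : ℝ) * p ^ S.card)
        = (N : ℝ) * ∑ S : Finset (Sym2 (Fin n)), g S * p ^ S.card := by
      rw [Finset.mul_sum]
      apply Finset.sum_congr rfl
      intro S _
      ring
    rw [h5] at h4
    have h6 : (N : ℝ) * ∑ S : Finset (Sym2 (Fin n)), g S * p ^ S.card ≤ (N : ℝ) * (1 / 2) :=
      mul_le_mul_of_nonneg_left hcost hNpos.le
    linarith
  · push Not at hyp
    obtain ⟨F, hF⟩ := hyp
    have he : 1 ≤ F.coe.edgeSet.ncard := by
      by_contra h0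
      have h0' : F.coe.edgeSet.ncard = 0 := by omega
      rw [h0', pow_zero, mul_one] at hF
      have h1 := one_le_copyCount_top H n hW F
      have h2 : (1 : ℝ) ≤ ((⊤ : SimpleGraph (Fin n)).copyCount F.coe : ℝ) := by
        exact_mod_cast h1
      linarith
    exact cover_of_subgraph n H F p' hp'0 he hF

end Vale.Agent.Lib.P034.helper6
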